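import Crest.Agent.H9.RI.Defs

/-! `T_arc`: shrinking arcs with controlled return times. -/

set_option autoImplicit false

namespace Crest.Agent.H1.RI

open Crest.Agent.H9.RI Crest.Agent.H2.RP Filter Set

lemma arc_dense (θ : ℝ) (hθ : Irrational θ) : DenseRange fun n : ℕ => n • ((θ : ℝ) : Cir) := by
  have h : DenseRange fun n : ℤ => n • ((θ : ℝ) : Cir) := by
    rw [AddCircle.denseRange_zsmul_coe_iff]
    simpa using hθ
  exact denseRange_zsmul_iff_nsmul.1 h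

lemma arc_mv (θ : ℝ) (x : Cir) (n : ℕ) :
    mv θ x (-((n + 1 : ℕ) : ℤ)) = (x - (θ : Cir)) - n • ((θ : ℝ) : Cir) := by
  unfold mv
  rw [← AddCircle.coe_nsmul, sub_sub, ← AddCircle.coe_add, sub_eq_add_neg, ← AddCircle.coe_neg]
  congr 2
  push_cast
  simp only [nsmul_eq_mul]
  ring

lemma arc_unif (θ : ℝ) (hθ : Irrational θ) (ε : ℝ) (hε : 0 < ε) :
    ∃ N : ℕ, ∀ x : Cir, ∃ i : ℕ, 1 ≤ i ∧ i ≤ N ∧ ‖mv θ x (-(i : ℤ))‖ < ε := by
  have hopen : ∀ n : ℕ, IsOpen {x : Cir | ‖mv θ x (-((n + 1 : ℕ) : ℤ))‖ < ε} := by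
    intro n
    apply isOpen_lt _ continuous_const
    unfold mv
    fun_prop
  have hcov : (univ : Set Cir) ⊆ ⋃ n : ℕ, {x : Cir | ‖mv θ x (-((n + 1 : ℕ) : ℤ))‖ < ε} := by
    intro x _
    obtain ⟨n, hn⟩ := Metric.denseRange_iff.1 (arc_dense θ hθ) (x - (θ : Cir)) ε hε
    refine mem_iUnion.2 ⟨n, ?_⟩
    show ‖mv θ x (-((n + 1 : ℕ) : ℤ))‖ < ε
    rw [arc_mv, ← dist_eq_norm]
    exact hn
  obtain ⟨s, hs⟩ := isCompact_univ.elim_finite_subcover _ hopen hcov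
  refine ⟨s.sup id + 1, fun x => ?_⟩
  have := hs (mem_univ x)
  simp only [mem_iUnion] at this
  obtain ⟨n, hn, hx⟩ := this
  refine ⟨n + 1, by omega, ?_, hx⟩
  have : n ≤ s.sup id := Finset.le_sup (f := id) hn
  omega

theorem t_arc : T_arc := by
  intro θ hθ
  set P : ℕ → Set ℝ := fun j =>
    {ε | ∀ x : Cir, ∃ i : ℕ, 1 ≤ i ∧ i ≤ 2 ^ j ∧ ‖mv θ x (-(i : ℤ))‖ < ε} with hP
  have hne : ∀ j, (P j).Nonempty := by
    intro j
    refine ⟨1, fun x => ⟨1, le_rfl, Nat.one_le_pow _ _ (by norm_num), ?_⟩⟩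
    have := AddCircle.norm_le_half_period (p := (1 : ℝ)) (x := mv θ x (-((1 : ℕ) : ℤ)))
      (by norm_num)
    rw [abs_one] at this
    exact lt_of_le_of_lt this (by norm_num)
  have hpos : ∀ j, ∀ ε ∈ P j, 0 ≤ ε := by
    intro j ε hε
    obtain ⟨i, _, _, h⟩ := hε 0
    exact le_trans (norm_nonneg _) h.le
  have hbdd : ∀ j, BddBelow (P j) := fun j => ⟨0, fun ε hε => hpos j ε hε⟩
  refine ⟨fun j => sInf (P j) + 1 / ((j : ℝ) + 1), ?_, ?_⟩
  · have h1 : Tendsto (fun j => sInf (P j)) atTop (nhds 0) := by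
      rw [Metric.tendsto_atTop]
      intro ε hε
      obtain ⟨N, hN⟩ := arc_unif θ hθ (ε / 2) (by positivity)
      refine ⟨N, fun j hj => ?_⟩
      have hmem : ε / 2 ∈ P j := by
        intro x
        obtain ⟨i, h1, h2, h3⟩ := hN x
        refine ⟨i, h1, ?_, h3⟩
        have : j < 2 ^ j := Nat.lt_two_pow_self
        omega
      have h2 : sInf (P j) ≤ ε / 2 := csInf_le (hbdd j) hmem
      have h3 : 0 ≤ sInf (P j) := le_csInf (hne j) (hpos j)
      rw [Real.dist_eq, sub_zero, abs_of_nonneg h3]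
      linarith
    have h2 := tendsto_one_div_add_atTop_nhds_zero_nat (𝕜 := ℝ)
    simpa using h1.add h2
  · intro j x
    have hlt : sInf (P j) < sInf (P j) + 1 / ((j : ℝ) + 1) := by
      have : (0 : ℝ) < 1 / ((j : ℝ) + 1) := by positivity
      linarith
    obtain ⟨ε, hε, hε'⟩ := exists_lt_of_csInf_lt (hne j) hlt
    obtain ⟨i, h1, h2, h3⟩ := hε x
    exact ⟨i, h1, h2, lt_trans h3 hε'⟩

end Crest.Agent.H1.RI
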