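import Crest.Agent.H9.RI.Defs

/-! `T_par`: numerical parameters. -/

set_option autoImplicit false

namespace Crest.Agent.H1.RI

open Crest.Agent.H9.RI

lemma par_lin (k : ℕ) (hk : 12 ≤ k) : 8194 * k + 16 ≤ 3 ^ k := by
  induction k, hk using Nat.le_induction with
  | base => norm_num
  | succ n hn ih => rw [pow_succ]; omega

lemma par_four (m : ℕ) (hm : 3 ≤ m) : 3 ^ m + m + 10 ≤ 4 ^ m := by
  induction m, hm using Nat.le_induction with
  | base => norm_num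
  | succ n hn ih => rw [pow_succ, pow_succ]; omega

lemma par_E (j : ℕ) (hj : 1 ≤ j) : EE' j ≤ 2 ^ j := by
  unfold EE'
  apply Nat.pow_le_pow_right (by norm_num)
  exact Nat.log_le_self _ _

lemma par_EW (j : ℕ) (hj : 1 ≤ j) :
    EE' j * (100 * 4 ^ (4096 * j)) ≤ 2 ^ (j + 7 + 8192 * j) := by
  have h1 := par_E j hj
  have h2 : (4 : ℕ) ^ (4096 * j) = 2 ^ (8192 * j) := by
    rw [show (4 : ℕ) = 2 ^ 2 by norm_num, ← pow_mul]; congr 1; ring
  rw [h2, pow_add, pow_add, mul_assoc]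
  apply Nat.mul_le_mul h1
  apply Nat.mul_le_mul_right
  norm_num

theorem t_par : T_par := by
  refine ⟨fun j => 2 ^ 3 ^ j, fun j => 2 * 2 ^ 3 ^ (4096 * j), fun j => 100 * 4 ^ (4096 * j), ?_⟩
  intro j hj
  have hj1 : 1 ≤ j := by omega
  have hp : 1 ≤ 4 ^ (4096 * j) := Nat.one_le_pow _ _ (by norm_num)
  refine ⟨?_, ?_, ?_, ?_, ?_, ?_⟩
  · show 16 ≤ 100 * 4 ^ (4096 * j)
    omega
  · show EE' j * 2 ^ j ≤ 100 * 4 ^ (4096 * j)
    have h1 := par_E j hj1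
    have h2 : EE' j * 2 ^ j ≤ 4 ^ j := by
      calc EE' j * 2 ^ j ≤ 2 ^ j * 2 ^ j := Nat.mul_le_mul_right _ h1
        _ = 4 ^ j := by rw [← mul_pow]; norm_num
    have h3 : 4 ^ j ≤ 4 ^ (4096 * j) := Nat.pow_le_pow_right (by norm_num) (by omega)
    omega
  · show 100 * (EE' j * (100 * 4 ^ (4096 * j)) + 2 * 2 ^ 3 ^ (4096 * j) + 2) * 2 ^ j ≤
      2 ^ (100 * 4 ^ (4096 * j) / 100)
    rw [Nat.mul_div_cancel_left _ (by norm_num : 0 < 100)]
    have h1 := par_EW j hj1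
    have h2 := par_lin (4096 * j) (by omega)
    have h3 := par_four (4096 * j) (by omega)
    set M := 3 ^ (4096 * j) with hM
    have h4 : 2 ^ (j + 7 + 8192 * j) ≤ 2 ^ M := Nat.pow_le_pow_right (by norm_num) (by omega)
    have h5 : 1 ≤ 2 ^ M := Nat.one_le_pow _ _ (by norm_num)
    have h6 : 100 * (EE' j * (100 * 4 ^ (4096 * j)) + 2 * 2 ^ M + 2) ≤ 2 ^ 10 * 2 ^ M := by
      have := le_trans h1 h4
      generalize EE' j * (100 * 4 ^ (4096 * j)) = X at this ⊢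
      generalize 2 ^ M = Y at this h5 ⊢
      omega
    calc 100 * (EE' j * (100 * 4 ^ (4096 * j)) + 2 * 2 ^ M + 2) * 2 ^ j
        ≤ 2 ^ 10 * 2 ^ M * 2 ^ j := Nat.mul_le_mul_right _ h6
      _ = 2 ^ (10 + M + j) := by rw [pow_add, pow_add]
      _ ≤ 2 ^ 4 ^ (4096 * j) := Nat.pow_le_pow_right (by norm_num) (by omega)
  · show 100 * 4 ^ j ≤ 2 ^ 3 ^ j
    have h2 := par_lin j (by omega)
    have h3 : (4 : ℕ) ^ j = 2 ^ (2 * j) := by rw [pow_mul]; norm_num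
    calc 100 * 4 ^ j ≤ 2 ^ 7 * 4 ^ j := Nat.mul_le_mul_right _ (by norm_num)
      _ = 2 ^ (7 + 2 * j) := by rw [h3, ← pow_add]
      _ ≤ 2 ^ 3 ^ j := Nat.pow_le_pow_right (by norm_num) (by omega)
  · intro i hi
    show 2 * 2 ^ 3 ^ i ≤ 2 * 2 ^ 3 ^ (4096 * j)
    apply Nat.mul_le_mul_left
    exact Nat.pow_le_pow_right (by norm_num) (Nat.pow_le_pow_right (by norm_num) hi)
  · intro i hi
    show 256 * 2 ^ i * (EE' j * (100 * 4 ^ (4096 * j))) * (2 ^ 3 ^ j) ^ 2 ≤ 2 ^ 3 ^ i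
    obtain ⟨k, rfl⟩ : ∃ k, i = k + 1 := ⟨i - 1, by omega⟩
    have hk : j ≤ k := by omega
    have h1 := par_EW j hj1
    have h2 := par_lin k (by omega)
    have h3 : 3 ^ j ≤ 3 ^ k := Nat.pow_le_pow_right (by norm_num) hk
    calc 256 * 2 ^ (k + 1) * (EE' j * (100 * 4 ^ (4096 * j))) * (2 ^ 3 ^ j) ^ 2
        ≤ 256 * 2 ^ (k + 1) * 2 ^ (j + 7 + 8192 * j) * (2 ^ 3 ^ j) ^ 2 :=
          Nat.mul_le_mul_right _ (Nat.mul_le_mul_left _ h1)
      _ = 2 ^ (8 + (k + 1) + (j + 7 + 8192 * j) + 3 ^ j * 2) := by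
          rw [← pow_mul, show (256 : ℕ) = 2 ^ 8 by norm_num, ← pow_add, ← pow_add, ← pow_add]
      _ ≤ 2 ^ 3 ^ (k + 1) := by
          apply Nat.pow_le_pow_right (by norm_num)
          rw [pow_succ]
          omega

end Crest.Agent.H1.RI
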